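import Vale.Agent.P331.Main

open scoped NNReal
open MeasureTheory

namespace Vale.Agent.Results.P331.SingleSample

open Vale.Agent.P331

/-- There is an absolute constant `c > 0` such that every finite matroid has a `c`-competitive
single-sample online rule against the almighty adversary. -/
theorem result : ∃ c : ℝ≥0, 0 < c ∧ ∀ (E : Type) [Fintype E] (M : Matroid E),
    ∃ (Ω : Type) (_ : MeasurableSpace Ω) (law : Measure Ω), IsProbabilityMeasure law ∧
      ∃ R : OnlineRule E Ω, Competitive M law R c :=
  main

end Vale.Agent.Results.P331.SingleSample
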